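import Vale.Agent.Helper16.KTV.Chain

/-!
Conditional expectations `cexpL` as orthogonal projections: constancy on classes,
idempotence, tower property, symmetry, Pythagoras.
-/

namespace KTV

open Finset

section

variable {X Λ : Type*} [DecidableEq Λ]

theorem cexpL_congr (Ω : Finset X) (lab : X → Λ) {f g : X → ℝ}
    (h : ∀ x ∈ Ω, f x = g x) (x : X) : cexpL Ω lab f x = cexpL Ω lab g x := by
  rw [cexpL_eq, cexpL_eq]
  congr 1
  exact Finset.sum_congr rfl fun y hy => h y (Finset.mem_filter.mp hy).1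

theorem cexpL_class (Ω : Finset X) (lab : X → Λ) (f : X → ℝ) {x y : X}
    (h : lab x = lab y) : cexpL Ω lab f x = cexpL Ω lab f y := by
  rw [cexpL_eq, cexpL_eq, h]

/-- The sum of `cexpL f` over one class equals the sum of `f` over it. -/
theorem sum_class_cexpL (Ω : Finset X) (lab : X → Λ) (f : X → ℝ) (l : Λ) :
    ∑ x ∈ Ω.filter (fun x => lab x = l), cexpL Ω lab f x
      = ∑ x ∈ Ω.filter (fun x => lab x = l), f x := by
  rcases (Ω.filter (fun x => lab x = l)).eq_empty_or_nonempty with he | hne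
  · rw [he]; simp
  have hc : (0 : ℝ) < ((Ω.filter (fun x => lab x = l)).card : ℝ) := by
    exact_mod_cast hne.card_pos
  have : ∀ x ∈ Ω.filter (fun x => lab x = l), cexpL Ω lab f x
      = (∑ y ∈ Ω.filter (fun y => lab y = l), f y) /
        ((Ω.filter (fun y => lab y = l)).card : ℝ) := by
    intro x hx
    rw [cexpL_eq, (Finset.mem_filter.mp hx).2]
  rw [Finset.sum_congr rfl this, Finset.sum_const, nsmul_eq_mul]
  field_simp

/-- Averaging a function that is constant on the class of `x` returns its value. -/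
theorem cexpL_of_const (Ω : Finset X) (lab : X → Λ) (h : X → ℝ) {x : X} (hx : x ∈ Ω)
    (hconst : ∀ y ∈ Ω, lab y = lab x → h y = h x) : cexpL Ω lab h x = h x := by
  rw [cexpL_eq]
  have hne : (Ω.filter (fun y => lab y = lab x)).Nonempty := ⟨x, by simp [hx]⟩
  have hc : (0 : ℝ) < ((Ω.filter (fun y => lab y = lab x)).card : ℝ) := by
    exact_mod_cast hne.card_pos
  have : ∀ y ∈ Ω.filter (fun y => lab y = lab x), h y = h x := by
    intro y hy
    exact hconst y (Finset.mem_filter.mp hy).1 (Finset.mem_filter.mp hy).2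
  rw [Finset.sum_congr rfl this, Finset.sum_const, nsmul_eq_mul]
  field_simp

theorem cexpL_idem (Ω : Finset X) (lab : X → Λ) (f : X → ℝ) {x : X} (hx : x ∈ Ω) :
    cexpL Ω lab (cexpL Ω lab f) x = cexpL Ω lab f x :=
  cexpL_of_const Ω lab _ hx fun _ _ h => cexpL_class Ω lab f h

/-- If `g` is weighted against a function constant on classes, `g` may be replaced by
its conditional expectation. -/
theorem sum_mul_of_const (Ω : Finset X) (lab : X → Λ) (g h : X → ℝ)
    (hconst : ∀ x ∈ Ω, ∀ y ∈ Ω, lab x = lab y → h x = h y) :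
    ∑ x ∈ Ω, g x * h x = ∑ x ∈ Ω, cexpL Ω lab g x * h x := by
  rw [← sum_fibres Ω lab (fun x => g x * h x), ← sum_fibres Ω lab (fun x => cexpL Ω lab g x * h x)]
  apply Finset.sum_congr rfl
  intro l hl
  obtain ⟨x0, hx0, rfl⟩ := Finset.mem_image.mp hl
  have e1 : ∀ x ∈ Ω.filter (fun x => lab x = lab x0), g x * h x = g x * h x0 := by
    intro x hx
    rw [hconst x (Finset.mem_filter.mp hx).1 x0 hx0 (Finset.mem_filter.mp hx).2]
  have e2 : ∀ x ∈ Ω.filter (fun x => lab x = lab x0), cexpL Ω lab g x * h x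
      = cexpL Ω lab g x * h x0 := by
    intro x hx
    rw [hconst x (Finset.mem_filter.mp hx).1 x0 hx0 (Finset.mem_filter.mp hx).2]
  rw [Finset.sum_congr rfl e1, Finset.sum_congr rfl e2, ← Finset.sum_mul, ← Finset.sum_mul,
    sum_class_cexpL]

/-- Symmetry of the conditional expectation. -/
theorem cexpL_symm (Ω : Finset X) (lab : X → Λ) (f g : X → ℝ) :
    ∑ x ∈ Ω, g x * cexpL Ω lab f x = ∑ x ∈ Ω, cexpL Ω lab g x * f x := by
  rw [sum_mul_of_const Ω lab g (cexpL Ω lab f) (fun x _ y _ h => cexpL_class Ω lab f h)]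
  have := sum_mul_of_const Ω lab f (cexpL Ω lab g) (fun x _ y _ h => cexpL_class Ω lab g h)
  simp only [mul_comm] at this ⊢
  rw [this]

/-- Pythagoras. -/
theorem sum_sub_cexpL_sq (Ω : Finset X) (lab : X → Λ) (f : X → ℝ) :
    ∑ x ∈ Ω, (f x - cexpL Ω lab f x) ^ 2
      = ∑ x ∈ Ω, f x ^ 2 - ∑ x ∈ Ω, cexpL Ω lab f x ^ 2 := by
  have h1 : ∀ x ∈ Ω, (f x - cexpL Ω lab f x) ^ 2
      = f x ^ 2 - 2 * (f x * cexpL Ω lab f x) + cexpL Ω lab f x ^ 2 := fun x _ => by ring
  rw [Finset.sum_congr rfl h1, Finset.sum_add_distrib, Finset.sum_sub_distrib, ← Finset.mul_sum,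
    sum_mul_cexpL]
  ring

end

section Tower

variable {X Λ Λ' : Type*} [DecidableEq Λ] [DecidableEq Λ']

/-- Tower property, coarse after fine. -/
theorem cexpL_tower (Ω : Finset X) (lab : X → Λ) (lab' : X → Λ')
    (hfine : ∀ x ∈ Ω, ∀ y ∈ Ω, lab x = lab y → lab' x = lab' y) (f : X → ℝ) {x : X}
    (hx : x ∈ Ω) : cexpL Ω lab' (cexpL Ω lab f) x = cexpL Ω lab' f x := by
  rw [cexpL_eq, cexpL_eq]
  congr 1
  -- on the coarse class, cexpL over Ω agrees with cexpL over the coarse class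
  set Ω' := Ω.filter (fun y => lab' y = lab' x) with hΩ'
  have hsub : ∀ y ∈ Ω', cexpL Ω lab f y = cexpL Ω' lab f y := by
    intro y hy
    have hyΩ := (Finset.mem_filter.mp hy).1
    have hy' := (Finset.mem_filter.mp hy).2
    rw [cexpL_eq, cexpL_eq]
    have : Ω'.filter (fun w => lab w = lab y) = Ω.filter (fun w => lab w = lab y) := by
      ext w
      simp only [hΩ', Finset.mem_filter]
      constructor
      · rintro ⟨⟨hw, _⟩, hw2⟩; exact ⟨hw, hw2⟩
      · rintro ⟨hw, hw2⟩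
        exact ⟨⟨hw, (hfine w hw y hyΩ hw2).trans hy'⟩, hw2⟩
    rw [this]
  rw [Finset.sum_congr rfl hsub]
  exact sum_cexpL Ω' lab f

/-- Tower property, fine after coarse. -/
theorem cexpL_tower' (Ω : Finset X) (lab : X → Λ) (lab' : X → Λ')
    (hfine : ∀ x ∈ Ω, ∀ y ∈ Ω, lab x = lab y → lab' x = lab' y) (f : X → ℝ) {x : X}
    (hx : x ∈ Ω) : cexpL Ω lab (cexpL Ω lab' f) x = cexpL Ω lab' f x :=
  cexpL_of_const Ω lab _ hx fun y hy h => cexpL_class Ω lab' f (hfine y hy x hx h)

end Tower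

end KTV
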