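import Vale.Agent.Helper16.KTV.Defs

/-!
Variance calculus for the property `TV2`: sum form of `sqDev`, the analysis of
variance identity, the chain rule and the operator form.
-/

namespace KTV

open Finset

section

variable {X : Type*}

theorem sqDev_eq (Ω : Finset X) (F : X → ℝ) :
    sqDev Ω F = ∑ x ∈ Ω, F x ^ 2 - (∑ x ∈ Ω, F x) ^ 2 / (Ω.card : ℝ) := by
  unfold sqDev
  rcases Ω.eq_empty_or_nonempty with h | h
  · subst h; simp
  · have hc : (0 : ℝ) < (Ω.card : ℝ) := by exact_mod_cast h.card_pos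
    set m := (∑ y ∈ Ω, F y) / (Ω.card : ℝ) with hm
    have h1 : ∑ x ∈ Ω, (F x - m) ^ 2
        = ∑ x ∈ Ω, F x ^ 2 - 2 * m * ∑ x ∈ Ω, F x + (Ω.card : ℝ) * m ^ 2 := by
      have : ∀ x ∈ Ω, (F x - m) ^ 2 = F x ^ 2 - 2 * m * F x + m ^ 2 := fun x _ => by ring
      rw [Finset.sum_congr rfl this, Finset.sum_add_distrib, Finset.sum_sub_distrib,
        ← Finset.mul_sum, Finset.sum_const, nsmul_eq_mul]
    rw [h1]
    have h2 : ∑ x ∈ Ω, F x = (Ω.card : ℝ) * m := by
      rw [hm]; field_simp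
    rw [h2]
    field_simp
    ring

theorem sqDev_nonneg (Ω : Finset X) (F : X → ℝ) : 0 ≤ sqDev Ω F := by
  unfold sqDev
  exact Finset.sum_nonneg fun _ _ => sq_nonneg _

theorem sqDev_congr (Ω : Finset X) {F G : X → ℝ} (h : ∀ x ∈ Ω, F x = G x) :
    sqDev Ω F = sqDev Ω G := by
  rw [sqDev_eq, sqDev_eq, Finset.sum_congr rfl h,
    Finset.sum_congr rfl (fun x hx => by rw [h x hx])]

end

section Fibres

variable {X Z : Type*} [DecidableEq Z]

/-- Sum over the fibre through `x` divided by its cardinality: `cexpL` unfolded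
with the ambient decidability instance. -/
theorem cexpL_eq (Ω : Finset X) (z : X → Z) (F : X → ℝ) (x : X) :
    cexpL Ω z F x = (∑ y ∈ Ω.filter (fun y => z y = z x), F y) /
      ((Ω.filter (fun y => z y = z x)).card : ℝ) := by
  unfold cexpL
  congr 1
  · apply Finset.sum_congr _ (fun _ _ => rfl)
    ext y; simp
  · congr 1
    apply congrArg
    ext y; simp

theorem sum_fibres (Ω : Finset X) (z : X → Z) (h : X → ℝ) :
    ∑ z0 ∈ Ω.image z, ∑ x ∈ Ω.filter (fun x => z x = z0), h x = ∑ x ∈ Ω, h x :=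
  Finset.sum_fiberwise_of_maps_to (fun _ hx => Finset.mem_image_of_mem z hx) h

theorem sum_cexpL (Ω : Finset X) (z : X → Z) (F : X → ℝ) :
    ∑ x ∈ Ω, cexpL Ω z F x = ∑ x ∈ Ω, F x := by
  rw [← sum_fibres Ω z (cexpL Ω z F), ← sum_fibres Ω z F]
  apply Finset.sum_congr rfl
  intro z0 hz0
  obtain ⟨x0, hx0, rfl⟩ := Finset.mem_image.mp hz0
  have hne : (Ω.filter (fun x => z x = z x0)).Nonempty := ⟨x0, by simp [hx0]⟩
  have hc : (0 : ℝ) < ((Ω.filter (fun x => z x = z x0)).card : ℝ) := by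
    exact_mod_cast hne.card_pos
  have : ∀ x ∈ Ω.filter (fun x => z x = z x0), cexpL Ω z F x
      = (∑ y ∈ Ω.filter (fun y => z y = z x0), F y) /
        ((Ω.filter (fun y => z y = z x0)).card : ℝ) := by
    intro x hx
    rw [cexpL_eq, (Finset.mem_filter.mp hx).2]
  rw [Finset.sum_congr rfl this, Finset.sum_const, nsmul_eq_mul]
  field_simp

theorem sum_cexpL_sq (Ω : Finset X) (z : X → Z) (F : X → ℝ) :
    ∑ x ∈ Ω, cexpL Ω z F x ^ 2 = ∑ z0 ∈ Ω.image z,
      (∑ x ∈ Ω.filter (fun x => z x = z0), F x) ^ 2 /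
        ((Ω.filter (fun x => z x = z0)).card : ℝ) := by
  rw [← sum_fibres Ω z (fun x => cexpL Ω z F x ^ 2)]
  apply Finset.sum_congr rfl
  intro z0 hz0
  obtain ⟨x0, hx0, rfl⟩ := Finset.mem_image.mp hz0
  have hne : (Ω.filter (fun x => z x = z x0)).Nonempty := ⟨x0, by simp [hx0]⟩
  have hc : (0 : ℝ) < ((Ω.filter (fun x => z x = z x0)).card : ℝ) := by
    exact_mod_cast hne.card_pos
  have : ∀ x ∈ Ω.filter (fun x => z x = z x0), cexpL Ω z F x ^ 2
      = ((∑ y ∈ Ω.filter (fun y => z y = z x0), F y) /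
        ((Ω.filter (fun y => z y = z x0)).card : ℝ)) ^ 2 := by
    intro x hx
    rw [cexpL_eq, (Finset.mem_filter.mp hx).2]
  rw [Finset.sum_congr rfl this, Finset.sum_const, nsmul_eq_mul]
  field_simp

/-- Analysis of variance. -/
theorem anova (Ω : Finset X) (z : X → Z) (F : X → ℝ) :
    sqDev Ω F = ∑ z0 ∈ Ω.image z, sqDev (Ω.filter (fun x => z x = z0)) F
      + sqDev Ω (cexpL Ω z F) := by
  rw [sqDev_eq Ω F, sqDev_eq Ω (cexpL Ω z F), sum_cexpL, sum_cexpL_sq]
  have : ∀ z0 ∈ Ω.image z, sqDev (Ω.filter (fun x => z x = z0)) F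
      = ∑ x ∈ Ω.filter (fun x => z x = z0), F x ^ 2
        - (∑ x ∈ Ω.filter (fun x => z x = z0), F x) ^ 2 /
          ((Ω.filter (fun x => z x = z0)).card : ℝ) := fun z0 _ => sqDev_eq _ _
  rw [Finset.sum_congr rfl this, Finset.sum_sub_distrib,
    sum_fibres Ω z (fun x => F x ^ 2)]
  ring

theorem cexpL_sum {κ : Type*} [Fintype κ] (Ω : Finset X) (z : X → Z) (g : κ → X → ℝ)
    (x : X) : cexpL Ω z (fun y => ∑ r, g r y) x = ∑ r, cexpL Ω z (g r) x := by
  simp only [cexpL_eq]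
  rw [Finset.sum_comm, Finset.sum_div]

/-- Chain rule for `TV2`. -/
theorem TV2.chain {Λ Λ' κ : Type*} [Fintype κ] (Ω : Finset X)
    (lab : κ → X → Λ) (z : X → Z) (ζ : κ → Z → Λ')
    (ha : ∀ z0, TV2 (Ω.filter fun x => z x = z0) lab)
    (hb : TV2 Ω (fun r x => ζ r (z x)))
    (hc : ∀ r (G : Λ → ℝ), ∃ H : Λ' → ℝ, ∀ z0,
      ∑ x ∈ Ω.filter (fun x => z x = z0), G (lab r x) =
        ((Ω.filter fun x => z x = z0).card : ℝ) * H (ζ r z0)) :
    TV2 Ω lab := by
  intro G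
  choose H hH using fun r => hc r (G r)
  have hce : ∀ r, ∀ x ∈ Ω, cexpL Ω z (fun y => G r (lab r y)) x = H r (ζ r (z x)) := by
    intro r x hx
    rw [cexpL_eq, hH r (z x)]
    have hne : (Ω.filter (fun y => z y = z x)).Nonempty := ⟨x, by simp [hx]⟩
    have hc0 : (0 : ℝ) < ((Ω.filter (fun y => z y = z x)).card : ℝ) := by
      exact_mod_cast hne.card_pos
    field_simp
  rw [anova Ω z]
  have h1 : ∑ z0 ∈ Ω.image z, sqDev (Ω.filter (fun x => z x = z0))
        (fun x => ∑ r, G r (lab r x))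
      ≤ ∑ z0 ∈ Ω.image z, 2 * ∑ r, sqDev (Ω.filter (fun x => z x = z0))
        (fun x => G r (lab r x)) :=
    Finset.sum_le_sum fun z0 _ => ha z0 G
  have h2 : sqDev Ω (cexpL Ω z (fun x => ∑ r, G r (lab r x)))
      ≤ 2 * ∑ r, sqDev Ω (cexpL Ω z (fun x => G r (lab r x))) := by
    have e1 : sqDev Ω (cexpL Ω z (fun x => ∑ r, G r (lab r x)))
        = sqDev Ω (fun x => ∑ r, H r (ζ r (z x))) := by
      apply sqDev_congr
      intro x hx
      rw [cexpL_sum]
      exact Finset.sum_congr rfl fun r _ => hce r x hx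
    have e2 : ∀ r, sqDev Ω (cexpL Ω z (fun x => G r (lab r x)))
        = sqDev Ω (fun x => H r (ζ r (z x))) := fun r => sqDev_congr Ω (hce r)
    rw [e1, Finset.sum_congr rfl fun r _ => e2 r]
    exact hb H
  have h3 : (2 : ℝ) * ∑ r, sqDev Ω (fun x => G r (lab r x))
      = ∑ z0 ∈ Ω.image z, 2 * ∑ r, sqDev (Ω.filter (fun x => z x = z0))
          (fun x => G r (lab r x))
        + 2 * ∑ r, sqDev Ω (cexpL Ω z (fun x => G r (lab r x))) := by
    have : ∀ r, sqDev Ω (fun x => G r (lab r x))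
        = ∑ z0 ∈ Ω.image z, sqDev (Ω.filter (fun x => z x = z0)) (fun x => G r (lab r x))
          + sqDev Ω (cexpL Ω z (fun x => G r (lab r x))) := fun r => anova Ω z _
    rw [Finset.sum_congr rfl fun r _ => this r, Finset.sum_add_distrib, mul_add,
      Finset.sum_comm, ← Finset.mul_sum]
  rw [h3]
  exact add_le_add h1 h2

end Fibres

end KTV

namespace KTV

open Finset

section OpForm

variable {X Z : Type*} [DecidableEq Z]

/-- `cexpL` is an orthogonal projection: `<f, E f> = |E f|^2`. -/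
theorem sum_mul_cexpL (Ω : Finset X) (z : X → Z) (F : X → ℝ) :
    ∑ x ∈ Ω, F x * cexpL Ω z F x = ∑ x ∈ Ω, cexpL Ω z F x ^ 2 := by
  rw [sum_cexpL_sq, ← sum_fibres Ω z (fun x => F x * cexpL Ω z F x)]
  apply Finset.sum_congr rfl
  intro z0 hz0
  obtain ⟨x0, hx0, rfl⟩ := Finset.mem_image.mp hz0
  have : ∀ x ∈ Ω.filter (fun x => z x = z x0), F x * cexpL Ω z F x
      = F x * ((∑ y ∈ Ω.filter (fun y => z y = z x0), F y) /
        ((Ω.filter (fun y => z y = z x0)).card : ℝ)) := by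
    intro x hx
    rw [cexpL_eq, (Finset.mem_filter.mp hx).2]
  rw [Finset.sum_congr rfl this, ← Finset.sum_mul]
  ring

end OpForm

/-- Operator form of `TV2`: the sum of the squared norms of the conditional
expectations given the single labels is at most twice the squared norm, up to
the contribution of the mean. -/
theorem TV2.opform {X Λ κ : Type*} [Fintype κ] (Ω : Finset X) (lab : κ → X → Λ)
    (h : TV2 Ω lab) (f : X → ℝ) :
    ∑ r, ∑ x ∈ Ω, (cexpL Ω (lab r) f x) ^ 2 ≤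
      2 * ∑ x ∈ Ω, f x ^ 2
        + ((Fintype.card κ : ℝ) - 2) * (∑ x ∈ Ω, f x) ^ 2 / (Ω.card : ℝ) := by
  classical
  rcases Ω.eq_empty_or_nonempty with he | hne
  · subst he; simp
  have hN : (0 : ℝ) < (Ω.card : ℝ) := by exact_mod_cast hne.card_pos
  set N : ℝ := (Ω.card : ℝ) with hNdef
  set S : ℝ := ∑ x ∈ Ω, f x with hS
  -- the functions of the labels
  let G : κ → Λ → ℝ := fun r l =>
    (∑ y ∈ Ω.filter (fun y => lab r y = l), f y) /
      ((Ω.filter (fun y => lab r y = l)).card : ℝ)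
  have hG : ∀ r x, G r (lab r x) = cexpL Ω (lab r) f x := fun r x => (cexpL_eq Ω (lab r) f x).symm
  have hT := h G
  simp only [hG] at hT
  set A : κ → ℝ := fun r => ∑ x ∈ Ω, (cexpL Ω (lab r) f x) ^ 2 with hA
  have hsum1 : ∀ r, ∑ x ∈ Ω, cexpL Ω (lab r) f x = S := fun r => sum_cexpL Ω (lab r) f
  have hdev : ∀ r, sqDev Ω (cexpL Ω (lab r) f) = A r - S ^ 2 / N := by
    intro r
    rw [sqDev_eq, hsum1 r]
  set Ftot : X → ℝ := fun x => ∑ r, cexpL Ω (lab r) f x with hF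
  have hFsum : ∑ x ∈ Ω, Ftot x = (Fintype.card κ : ℝ) * S := by
    rw [hF, Finset.sum_comm, Finset.sum_congr rfl fun r _ => hsum1 r, Finset.sum_const,
      nsmul_eq_mul, Finset.card_univ]
  have hfF : ∑ x ∈ Ω, f x * Ftot x = ∑ r, A r := by
    rw [hF]
    simp only [Finset.mul_sum]
    rw [Finset.sum_comm]
    exact Finset.sum_congr rfl fun r _ => sum_mul_cexpL Ω (lab r) f
  set k : ℝ := (Fintype.card κ : ℝ) with hk
  set B : ℝ := ∑ r, A r - k * S ^ 2 / N with hB
  have hBsum : ∑ r, sqDev Ω (cexpL Ω (lab r) f) = B := by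
    rw [Finset.sum_congr rfl fun r _ => hdev r, Finset.sum_sub_distrib, Finset.sum_const,
      nsmul_eq_mul, Finset.card_univ, hB]
    ring
  have hB0 : 0 ≤ B := by
    rw [← hBsum]; exact Finset.sum_nonneg fun r _ => sqDev_nonneg _ _
  rw [hBsum] at hT
  -- Cauchy-Schwarz for the centred functions
  have hCS := Finset.sum_mul_sq_le_sq_mul_sq Ω (fun x => f x - S / N)
    (fun x => Ftot x - k * S / N)
  have hc1 : ∑ x ∈ Ω, (f x - S / N) * (Ftot x - k * S / N) = B := by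
    have : ∀ x ∈ Ω, (f x - S / N) * (Ftot x - k * S / N)
        = f x * Ftot x - (k * S / N) * f x - (S / N) * Ftot x + S / N * (k * S / N) :=
      fun x _ => by ring
    rw [Finset.sum_congr rfl this, Finset.sum_add_distrib, Finset.sum_sub_distrib,
      Finset.sum_sub_distrib, ← Finset.mul_sum, ← Finset.mul_sum, hfF, hFsum, Finset.sum_const,
      nsmul_eq_mul, ← hS, ← hNdef, hB]
    field_simp
    ring
  have hc2 : ∑ x ∈ Ω, (f x - S / N) ^ 2 = sqDev Ω f := rfl
  have hc3 : ∑ x ∈ Ω, (Ftot x - k * S / N) ^ 2 = sqDev Ω Ftot := by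
    unfold sqDev
    rw [hFsum]
  rw [hc1, hc2, hc3] at hCS
  have hf0 : 0 ≤ sqDev Ω f := sqDev_nonneg _ _
  have hBle : B ≤ 2 * sqDev Ω f := by
    by_contra hcon
    push Not at hcon
    have hBpos : 0 < B := lt_of_le_of_lt (by positivity) hcon
    have : B ^ 2 ≤ sqDev Ω f * (2 * B) :=
      hCS.trans (mul_le_mul_of_nonneg_left hT hf0)
    nlinarith
  rw [sqDev_eq] at hBle
  have hgoal : ∑ r, A r = B + k * S ^ 2 / N := by rw [hB]; ring
  rw [hgoal]
  have : (k - 2) * S ^ 2 / N = k * S ^ 2 / N - 2 * (S ^ 2 / N) := by ring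
  rw [this]
  linarith

end KTV
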