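import Mathlib

/-!
Shared definitions for the bipartite switch-chain project (problem P335).

Binary tables with prescribed row and column sums, conditional expectations
given the rows outside a set of rows, and the switch relation.
-/

namespace KTV

open Finset

/-- Twice the Dirichlet form of the graph on `Ω` with edge relation `R`
(every unordered edge is counted twice when `R` is symmetric). -/
noncomputable def dirichlet {X : Type*} (Ω : Finset X) (R : X → X → Prop)
    (f : X → ℝ) : ℝ := by
  classical exact ∑ x ∈ Ω, ∑ y ∈ Ω.filter (R x), (f x - f y) ^ 2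

/-- Sum over `Ω` of the squared deviations of `f` from its mean over `Ω`
(that is, `Ω.card` times the variance of `f` under the uniform measure). -/
noncomputable def sqDev {X : Type*} (Ω : Finset X) (f : X → ℝ) : ℝ :=
  ∑ x ∈ Ω, (f x - (∑ y ∈ Ω, f y) / (Ω.card : ℝ)) ^ 2

/-- Average of `f` over the points of `Ω` carrying the same label as `x`:
the conditional expectation of `f` given the label, uniform measure on `Ω`. -/
noncomputable def cexpL {X Λ : Type*} (Ω : Finset X) (lab : X → Λ) (f : X → ℝ)
    (x : X) : ℝ := by
  classical exact
    (∑ y ∈ Ω.filter (fun y => lab y = lab x), f y) /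
      ((Ω.filter (fun y => lab y = lab x)).card : ℝ)

/-- Property `TV2` of a finite set `Ω` with a family of label maps `lab r`:
the variance of a sum of functions of the single labels is at most twice the
sum of their variances. -/
def TV2 {X Λ κ : Type*} [Fintype κ] (Ω : Finset X) (lab : κ → X → Λ) : Prop :=
  ∀ G : κ → Λ → ℝ,
    sqDev Ω (fun x => ∑ r, G r (lab r x)) ≤ 2 * ∑ r, sqDev Ω (fun x => G r (lab r x))

/-- Binary tables with row index `α` and column index `β`. -/
abbrev Tab (α β : Type*) := α → β → Bool

section Basic

variable {α β : Type*} [Fintype α] [DecidableEq α] [Fintype β] [DecidableEq β]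

/-- Number of ones in row `a`. -/
def rowSum (x : Tab α β) (a : α) : ℕ := (univ.filter fun j => x a j = true).card

/-- Number of ones in column `j`. -/
def colSum (x : Tab α β) (j : β) : ℕ := (univ.filter fun a => x a j = true).card

/-- All binary tables with row sums `ρ` and column sums `c`. -/
def Omega (ρ : α → ℕ) (c : β → ℕ) : Finset (Tab α β) :=
  univ.filter fun x => (∀ a, rowSum x a = ρ a) ∧ (∀ j, colSum x j = c j)

/-- `x` and `y` agree on every row outside `S`. -/
def AgreeOff (S : Finset α) (x y : Tab α β) : Prop := ∀ a, a ∉ S → x a = y a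

instance (S : Finset α) : DecidableRel (AgreeOff (β := β) S) := fun x y => by
  unfold AgreeOff; infer_instance

/-- The tables of `Ω` agreeing with `x` outside the rows in `S`. -/
def fibre (Ω : Finset (Tab α β)) (S : Finset α) (x : Tab α β) : Finset (Tab α β) :=
  Ω.filter (AgreeOff S x)

/-- Conditional expectation of `f` given the rows outside `S`, for the uniform
measure on `Ω`: the average of `f` over the fibre of `x`. -/
noncomputable def cexp (Ω : Finset (Tab α β)) (S : Finset α) (f : Tab α β → ℝ)
    (x : Tab α β) : ℝ :=
  (∑ y ∈ fibre Ω S x, f y) / ((fibre Ω S x).card : ℝ)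

/-- `y` arises from `x` by the switch in rows `a, b` and columns `j, k`:
the ones at `(a,j)`, `(b,k)` move to `(a,k)`, `(b,j)`. -/
def SwitchAt (a b : α) (j k : β) (x y : Tab α β) : Prop :=
  a ≠ b ∧ j ≠ k ∧ x a j = true ∧ x b k = true ∧ x a k = false ∧ x b j = false ∧
    y a j = false ∧ y b k = false ∧ y a k = true ∧ y b j = true ∧
    ∀ r s, ¬ ((r = a ∨ r = b) ∧ (s = j ∨ s = k)) → y r s = x r s

/-- `y` arises from `x` by a switch inside the two rows `a, b`. -/
def SwitchRows (a b : α) (x y : Tab α β) : Prop := ∃ j k, SwitchAt a b j k x y

/-- `y` arises from `x` by a switch. -/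
def IsSwitch (x y : Tab α β) : Prop := ∃ a b j k, SwitchAt a b j k x y

end Basic

end KTV
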