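import Vale.Agent.Helper16.KTV.Glue1
import Vale.Agent.Helper4.KTV.Caputo
import Vale.Agent.Helper17.KTV.ThreeRow
import Vale.Agent.Helper19.KTV.Col
import Vale.Agent.Helper23.KTV.Ryser
import Vale.Agent.Helper23.KTV.Comm
import Vale.Agent.Helper26.KTV.Johnson

/-!
Glue, part 2: the Poincare inequality for the switch graph of binary tables.
-/

set_option linter.unusedSectionVars false

namespace KTV

open Finset Matrix

section Tables

variable {α β : Type*} [Fintype α] [DecidableEq α] [Fintype β] [DecidableEq β]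

/-- The projection `I - E[. | rows outside {i, j}]` as a matrix on `Omega ρ c`. -/
noncomputable def QM (ρ : α → ℕ) (c : β → ℕ) (i j : α) :
    Matrix (Omega ρ c) (Omega ρ c) ℝ :=
  1 - PM (Omega ρ c) (labOff (β := β) {i, j})

theorem QM_mulVec (ρ : α → ℕ) (c : β → ℕ) (i j : α) (f : Tab α β → ℝ) :
    QM ρ c i j *ᵥ vec (Omega ρ c) f
      = vec (Omega ρ c) (fun x => f x - cexp (Omega ρ c) {i, j} f x) := by
  unfold QM
  rw [Matrix.sub_mulVec, Matrix.one_mulVec, PM_mulVec]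
  funext x
  simp only [Pi.sub_apply, vec, cexp_eq]

theorem QM_symm (ρ : α → ℕ) (c : β → ℕ) (i j : α) : QM ρ c i j = QM ρ c j i := by
  unfold QM
  rw [Finset.pair_comm]

theorem QM_transpose (ρ : α → ℕ) (c : β → ℕ) (i j : α) :
    (QM ρ c i j).transpose = QM ρ c i j := by
  unfold QM
  rw [Matrix.transpose_sub, Matrix.transpose_one, PM_transpose]

theorem QM_idem (ρ : α → ℕ) (c : β → ℕ) (i j : α) :
    QM ρ c i j * QM ρ c i j = QM ρ c i j := by
  unfold QM
  rw [sub_mul, mul_sub, mul_sub, PM_idem]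
  simp

theorem QM_comm (ρ : α → ℕ) (c : β → ℕ) {i j k l : α} (hij : i ≠ j) (hkl : k ≠ l)
    (hik : i ≠ k) (hil : i ≠ l) (hjk : j ≠ k) (hjl : j ≠ l) :
    QM ρ c i j * QM ρ c k l = QM ρ c k l * QM ρ c i j := by
  have hP : PM (Omega ρ c) (labOff (β := β) {i, j}) * PM (Omega ρ c) (labOff (β := β) {k, l})
      = PM (Omega ρ c) (labOff (β := β) {k, l}) * PM (Omega ρ c) (labOff (β := β) {i, j}) := by
    apply PM_comm
    intro f x hx
    have h := cexp_comm ρ c hij hkl hik hil hjk hjl f hx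
    have e1 : cexp (Omega ρ c) {i, j} (cexp (Omega ρ c) {k, l} f) x
        = cexpL (Omega ρ c) (labOff {i, j}) (cexpL (Omega ρ c) (labOff {k, l}) f) x := by
      rw [cexp_eq]
      exact cexpL_congr _ _ (fun y _ => cexp_eq _ _ _ y) x
    have e2 : cexp (Omega ρ c) {k, l} (cexp (Omega ρ c) {i, j} f) x
        = cexpL (Omega ρ c) (labOff {k, l}) (cexpL (Omega ρ c) (labOff {i, j}) f) x := by
      rw [cexp_eq]
      exact cexpL_congr _ _ (fun y _ => cexp_eq _ _ _ y) x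
    rw [← e1, ← e2, h]
  unfold QM
  rw [sub_mul, mul_sub, mul_sub, sub_mul, mul_sub, mul_sub, hP]
  simp only [one_mul, mul_one]
  abel

theorem QM_quad (ρ : α → ℕ) (c : β → ℕ) (i j : α) (f : Tab α β → ℝ) :
    vec (Omega ρ c) f ⬝ᵥ (QM ρ c i j *ᵥ vec (Omega ρ c) f)
      = ∑ x ∈ Omega ρ c, (f x - cexp (Omega ρ c) {i, j} f x) ^ 2 := by
  rw [QM_mulVec, vec_dot]
  have h1 : ∀ x ∈ Omega ρ c, f x * (f x - cexp (Omega ρ c) {i, j} f x)
      = f x ^ 2 - f x * cexpL (Omega ρ c) (labOff {i, j}) f x := by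
    intro x _; rw [cexp_eq]; ring
  have h2 : ∀ x ∈ Omega ρ c, (f x - cexp (Omega ρ c) {i, j} f x) ^ 2
      = (f x - cexpL (Omega ρ c) (labOff {i, j}) f x) ^ 2 := by
    intro x _; rw [cexp_eq]
  rw [Finset.sum_congr rfl h1, Finset.sum_congr rfl h2, sum_sub_cexpL_sq, Finset.sum_sub_distrib,
    sum_mul_cexpL]

theorem QM_tri (ρ : α → ℕ) (c : β → ℕ) {i j k : α} (hij : i ≠ j) (hik : i ≠ k) (hjk : j ≠ k)
    (v : Omega ρ c → ℝ) :
    v ⬝ᵥ ((QM ρ c i j + QM ρ c i k + QM ρ c j k) *ᵥ v) ≤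
      ((QM ρ c i j + QM ρ c i k + QM ρ c j k) *ᵥ v) ⬝ᵥ
        ((QM ρ c i j + QM ρ c i k + QM ρ c j k) *ᵥ v) := by
  rw [← vec_ext0 (Omega ρ c) v]
  set f := ext0 (Omega ρ c) v with hf
  set Ω := Omega ρ c with hΩ
  have hA : (QM ρ c i j + QM ρ c i k + QM ρ c j k) *ᵥ vec Ω f
      = vec Ω (fun x => 3 * f x - cexpL Ω (labOff {i, j}) f x - cexpL Ω (labOff {i, k}) f x
          - cexpL Ω (labOff {j, k}) f x) := by
    rw [Matrix.add_mulVec, Matrix.add_mulVec, QM_mulVec, QM_mulVec, QM_mulVec]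
    funext x
    simp only [Pi.add_apply, vec, cexp_eq]
    ring
  rw [hA, vec_dot, vec_dot]
  have hsub1 : ({i, j} : Finset α) ⊆ {i, j, k} := by
    intro a; simp only [Finset.mem_insert, Finset.mem_singleton]; tauto
  have hsub2 : ({i, k} : Finset α) ⊆ {i, j, k} := by
    intro a; simp only [Finset.mem_insert, Finset.mem_singleton]; tauto
  have hsub3 : ({j, k} : Finset α) ⊆ {i, j, k} := by
    intro a; simp only [Finset.mem_insert, Finset.mem_singleton]; tauto
  have hrow : ∀ g : Tab α β → ℝ, ∑ x ∈ Ω, ((cexpL Ω (labOff {i, j}) g x) ^ 2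
      + (cexpL Ω (labOff {i, k}) g x) ^ 2 + (cexpL Ω (labOff {j, k}) g x) ^ 2)
      ≤ 2 * ∑ x ∈ Ω, (g x) ^ 2 + ∑ x ∈ Ω, (cexpL Ω (labOff {i, j, k}) g x) ^ 2 := by
    intro g
    have := three_row_of (fun _ _ _ t δ => tv2_col t δ) ρ c hij hik hjk g
    simp only [cexp_eq] at this
    exact this
  have := tri_abstract Ω (labOff {i, j}) (labOff {i, k}) (labOff {j, k}) (labOff {i, j, k})
    (fun x _ y _ h => labOff_mono hsub1 x y h) (fun x _ y _ h => labOff_mono hsub2 x y h)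
    (fun x _ y _ h => labOff_mono hsub3 x y h) hrow f
  calc ∑ x ∈ Ω, f x * (3 * f x - cexpL Ω (labOff {i, j}) f x - cexpL Ω (labOff {i, k}) f x
          - cexpL Ω (labOff {j, k}) f x) ≤ _ := this
    _ = _ := Finset.sum_congr rfl fun x _ => by ring

end Tables

end KTV

namespace KTV

open Finset Matrix

section Final

variable {α β : Type*} [Fintype α] [DecidableEq α] [Fintype β] [DecidableEq β]

/-- Sum of the pair projections over all ordered pairs of distinct rows. -/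
noncomputable def LLM (ρ : α → ℕ) (c : β → ℕ) : Matrix (Omega ρ c) (Omega ρ c) ℝ :=
  ∑ i, ∑ j ∈ univ.erase i, QM ρ c i j

theorem LLM_transpose (ρ : α → ℕ) (c : β → ℕ) : (LLM ρ c).transpose = LLM ρ c := by
  unfold LLM
  rw [Matrix.transpose_sum]
  apply Finset.sum_congr rfl
  intro i _
  rw [Matrix.transpose_sum]
  exact Finset.sum_congr rfl fun j _ => QM_transpose ρ c i j

theorem LLM_quad (ρ : α → ℕ) (c : β → ℕ) (f : Tab α β → ℝ) :
    vec (Omega ρ c) f ⬝ᵥ (LLM ρ c *ᵥ vec (Omega ρ c) f)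
      = ∑ i, ∑ j ∈ univ.erase i,
          ∑ x ∈ Omega ρ c, (f x - cexp (Omega ρ c) {i, j} f x) ^ 2 := by
  unfold LLM
  rw [Matrix.sum_mulVec, dotProduct_sum]
  apply Finset.sum_congr rfl
  intro i _
  rw [Matrix.sum_mulVec, dotProduct_sum]
  exact Finset.sum_congr rfl fun j _ => QM_quad ρ c i j f

/-- Functions in the kernel of `LLM` are constant on `Omega ρ c`. -/
theorem LLM_kernel (ρ : α → ℕ) (c : β → ℕ) (g : Tab α β → ℝ)
    (hg : LLM ρ c *ᵥ vec (Omega ρ c) g = 0) :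
    ∀ x ∈ Omega ρ c, ∀ y ∈ Omega ρ c, g x = g y := by
  have h0 : vec (Omega ρ c) g ⬝ᵥ (LLM ρ c *ᵥ vec (Omega ρ c) g) = 0 := by
    rw [hg]; simp
  rw [LLM_quad] at h0
  have hnn : ∀ i ∈ (univ : Finset α), 0 ≤ ∑ j ∈ univ.erase i,
      ∑ x ∈ Omega ρ c, (g x - cexp (Omega ρ c) {i, j} g x) ^ 2 :=
    fun i _ => Finset.sum_nonneg fun j _ => Finset.sum_nonneg fun x _ => sq_nonneg _
  have h1 := (Finset.sum_eq_zero_iff_of_nonneg hnn).mp h0
  have hpair : ∀ i j : α, i ≠ j → ∀ x ∈ Omega ρ c, g x = cexp (Omega ρ c) {i, j} g x := by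
    intro i j hij x hx
    have h2 := h1 i (Finset.mem_univ i)
    have hnn2 : ∀ j ∈ univ.erase i, 0 ≤ ∑ x ∈ Omega ρ c,
        (g x - cexp (Omega ρ c) {i, j} g x) ^ 2 :=
      fun j _ => Finset.sum_nonneg fun x _ => sq_nonneg _
    have h3 := (Finset.sum_eq_zero_iff_of_nonneg hnn2).mp h2 j
      (Finset.mem_erase.mpr ⟨fun h => hij h.symm, Finset.mem_univ j⟩)
    have h4 := (Finset.sum_eq_zero_iff_of_nonneg (fun x _ => sq_nonneg _)).mp h3 x hx
    have h5 := pow_eq_zero_iff (two_ne_zero) |>.mp h4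
    linarith
  -- invariance along switches
  have hstep : ∀ x ∈ Omega ρ c, ∀ y, IsSwitch x y → y ∈ Omega ρ c ∧ g y = g x := by
    intro x hx y hxy
    have hy := IsSwitch.mem_Omega hxy hx
    refine ⟨hy, ?_⟩
    obtain ⟨a, b, j, k, hsw⟩ := hxy
    have hab : a ≠ b := hsw.1
    rw [hpair a b hab x hx, hpair a b hab y hy, cexp_eq, cexp_eq]
    exact cexpL_class _ _ _ hsw.labOff.symm
  have hchain : ∀ x ∈ Omega ρ c, ∀ y, Relation.ReflTransGen IsSwitch x y →
      y ∈ Omega ρ c ∧ g y = g x := by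
    intro x hx y hxy
    induction hxy with
    | refl => exact ⟨hx, rfl⟩
    | tail _ hbc ih =>
      obtain ⟨hb, hgb⟩ := ih
      obtain ⟨hc, hgc⟩ := hstep _ hb _ hbc
      exact ⟨hc, hgc.trans hgb⟩
  intro x hx y hy
  exact ((hchain x hx y (ryser ρ c hx hy)).2).symm

/-- Row-pair form: for mean-zero `f`, twice the squared norm is at most the sum of the
pair heat-bath Dirichlet forms over ordered pairs of rows. -/
theorem pair_poincare (ρ : α → ℕ) (c : β → ℕ) (f : Tab α β → ℝ)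
    (hf : ∑ x ∈ Omega ρ c, f x = 0) :
    2 * ∑ x ∈ Omega ρ c, f x ^ 2 ≤ ∑ i, ∑ j ∈ univ.erase i,
          ∑ x ∈ Omega ρ c, (f x - cexp (Omega ρ c) {i, j} f x) ^ 2 := by
  have hsq : ∀ v : Omega ρ c → ℝ, 2 * (v ⬝ᵥ (LLM ρ c *ᵥ v))
      ≤ (LLM ρ c *ᵥ v) ⬝ᵥ (LLM ρ c *ᵥ v) := by
    intro v
    exact caputo_sq (QM ρ c) (QM_symm ρ c) (QM_transpose ρ c) (QM_idem ρ c)
      (fun i j k l hij hkl hik hil hjk hjl => QM_comm ρ c hij hkl hik hil hjk hjl)
      (fun i j k hij hik hjk v => QM_tri ρ c hij hik hjk v) v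
  have hker : ∀ g : Omega ρ c → ℝ, LLM ρ c *ᵥ g = 0 → vec (Omega ρ c) f ⬝ᵥ g = 0 := by
    intro g hg
    rw [← vec_ext0 (Omega ρ c) g] at hg ⊢
    have hconst := LLM_kernel ρ c (ext0 (Omega ρ c) g) hg
    rw [vec_dot]
    rcases (Omega ρ c).eq_empty_or_nonempty with he | ⟨x0, hx0⟩
    · exact Finset.sum_eq_zero fun x hx => by rw [he] at hx; simp at hx
    · have : ∀ x ∈ Omega ρ c, f x * ext0 (Omega ρ c) g x = f x * ext0 (Omega ρ c) g x0 :=
        fun x hx => by rw [hconst x hx x0 hx0]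
      rw [Finset.sum_congr rfl this, ← Finset.sum_mul, hf, zero_mul]
  have hpos : ∀ v : Omega ρ c → ℝ, 0 ≤ v ⬝ᵥ (LLM ρ c *ᵥ v) := by
    intro v
    rw [← vec_ext0 (Omega ρ c) v, LLM_quad]
    exact Finset.sum_nonneg fun i _ => Finset.sum_nonneg fun j _ =>
      Finset.sum_nonneg fun x _ => sq_nonneg _
  have h := poincare_of_sq (LLM ρ c) (LLM_transpose ρ c) 2 (by norm_num) hpos hsq
    (vec (Omega ρ c) f) hker
  rw [LLM_quad, vec_dot] at h
  have : ∀ x ∈ Omega ρ c, f x * f x = f x ^ 2 := fun x _ => by ring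
  rw [Finset.sum_congr rfl this] at h
  exact h

theorem dirichlet_eq_ite {X : Type*} (Ω : Finset X) (R : X → X → Prop) [DecidableRel R]
    (f : X → ℝ) :
    dirichlet Ω R f = ∑ x ∈ Ω, ∑ y ∈ Ω, if R x y then (f x - f y) ^ 2 else 0 := by
  unfold dirichlet
  apply Finset.sum_congr rfl
  intro x _
  rw [Finset.sum_filter]
  apply Finset.sum_congr rfl
  intro y _
  congr 1

open Classical in
/-- The row-pair Dirichlet forms add up to at most twice the switch Dirichlet form. -/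
theorem sum_dirichlet_rows_le (Ω : Finset (Tab α β)) (f : Tab α β → ℝ) :
    ∑ i : α, ∑ j ∈ univ.erase i, dirichlet Ω (SwitchRows i j) f
      ≤ 2 * dirichlet Ω IsSwitch f := by
  simp only [dirichlet_eq_ite]
  have h1 : ∑ i : α, ∑ j ∈ univ.erase i, ∑ x ∈ Ω, ∑ y ∈ Ω,
      (if SwitchRows i j x y then (f x - f y) ^ 2 else 0)
      = ∑ x ∈ Ω, ∑ y ∈ Ω, (∑ i : α, ∑ j ∈ univ.erase i,
          (if SwitchRows i j x y then (1 : ℝ) else 0)) * (f x - f y) ^ 2 := by
    have e1 : ∀ i : α, ∑ j ∈ univ.erase i, ∑ x ∈ Ω, ∑ y ∈ Ω,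
        (if SwitchRows i j x y then (f x - f y) ^ 2 else 0)
        = ∑ x ∈ Ω, ∑ y ∈ Ω, ∑ j ∈ univ.erase i,
          (if SwitchRows i j x y then (f x - f y) ^ 2 else 0) := by
      intro i
      rw [Finset.sum_comm]
      apply Finset.sum_congr rfl
      intro x _
      rw [Finset.sum_comm]
    rw [Finset.sum_congr rfl fun i _ => e1 i, Finset.sum_comm]
    apply Finset.sum_congr rfl
    intro x _
    rw [Finset.sum_comm]
    apply Finset.sum_congr rfl
    intro y _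
    rw [Finset.sum_mul]
    apply Finset.sum_congr rfl
    intro i _
    rw [Finset.sum_mul]
    apply Finset.sum_congr rfl
    intro j _
    split_ifs <;> simp
  rw [h1, Finset.mul_sum]
  apply Finset.sum_le_sum
  intro x _
  rw [Finset.mul_sum]
  apply Finset.sum_le_sum
  intro y _
  have hc := switchRows_count x y
  by_cases hs : IsSwitch x y
  · rw [if_pos hs] at hc ⊢
    exact mul_le_mul_of_nonneg_right hc (sq_nonneg _)
  · rw [if_neg hs] at hc ⊢
    have h0 : (0 : ℝ) ≤ ∑ i : α, ∑ j ∈ univ.erase i,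
        (if SwitchRows i j x y then (1 : ℝ) else 0) :=
      Finset.sum_nonneg fun i _ => Finset.sum_nonneg fun j _ => by split_ifs <;> norm_num
    have : (∑ i : α, ∑ j ∈ univ.erase i,
        (if SwitchRows i j x y then (1 : ℝ) else 0)) = 0 := le_antisymm hc h0
    rw [this]; simp

theorem dirichlet_sub_const {X : Type*} (Ω : Finset X) (R : X → X → Prop) (f : X → ℝ)
    (m : ℝ) : dirichlet Ω R (fun x => f x - m) = dirichlet Ω R f := by
  unfold dirichlet
  apply Finset.sum_congr rfl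
  intro x _
  apply Finset.sum_congr rfl
  intro y _
  ring

/-- Poincare inequality for the switch graph of binary tables with fixed margins:
the second Laplacian eigenvalue of the switch graph is at least 2. -/
theorem switch_poincare (ρ : α → ℕ) (c : β → ℕ) (f : Tab α β → ℝ) :
    4 * sqDev (Omega ρ c) f ≤ dirichlet (Omega ρ c) IsSwitch f := by
  classical
  set Ω := Omega ρ c with hΩ
  set m : ℝ := (∑ y ∈ Ω, f y) / (Ω.card : ℝ) with hm
  set f0 : Tab α β → ℝ := fun x => f x - m with hf0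
  have hmean : ∑ x ∈ Ω, f0 x = 0 := by
    rw [hf0, Finset.sum_sub_distrib, Finset.sum_const, nsmul_eq_mul]
    rcases Ω.eq_empty_or_nonempty with he | hne
    · rw [he]; simp
    · have hc : (0 : ℝ) < (Ω.card : ℝ) := by exact_mod_cast hne.card_pos
      rw [hm]; field_simp; ring
  have h1 := pair_poincare ρ c f0 hmean
  have h2 : ∀ i : α, ∀ j ∈ univ.erase i,
      ∑ x ∈ Ω, (f0 x - cexp Ω {i, j} f0 x) ^ 2 ≤ (1 / 4) * dirichlet Ω (SwitchRows i j) f0 := by
    intro i j hj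
    have hij : i ≠ j := fun h => (Finset.mem_erase.mp hj).1 h.symm
    have := johnson ρ c hij f0
    linarith
  have h3 : ∑ i : α, ∑ j ∈ univ.erase i, ∑ x ∈ Ω, (f0 x - cexp Ω {i, j} f0 x) ^ 2
      ≤ (1 / 4) * ∑ i : α, ∑ j ∈ univ.erase i, dirichlet Ω (SwitchRows i j) f0 := by
    rw [Finset.mul_sum]
    apply Finset.sum_le_sum
    intro i _
    rw [Finset.mul_sum]
    exact Finset.sum_le_sum fun j hj => h2 i j hj
  have h4 := sum_dirichlet_rows_le Ω f0
  have h5 : dirichlet Ω IsSwitch f0 = dirichlet Ω IsSwitch f := dirichlet_sub_const Ω _ f m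
  have h6 : sqDev Ω f = ∑ x ∈ Ω, f0 x ^ 2 := rfl
  rw [h6, ← h5]
  linarith

end Final

end KTV
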