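import Vale.Agent.Helper16.KTV.CondExp

/-!
Bridge between conditional expectations of functions and matrices indexed by
the subtype of a finset.
-/

namespace KTV

open Finset Matrix

section

variable {X Λ : Type*} [DecidableEq Λ]

/-- The conditional expectation given a label, as a matrix on the subtype `Ω`. -/
noncomputable def PM (Ω : Finset X) (lab : X → Λ) : Matrix Ω Ω ℝ :=
  fun x y => if lab y.1 = lab x.1 then
    ((Ω.filter fun z => lab z = lab x.1).card : ℝ)⁻¹ else 0

/-- Restriction of a function to the subtype. -/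
def vec (Ω : Finset X) (f : X → ℝ) : Ω → ℝ := fun x => f x.1

open Classical in
/-- Extension by zero of a function on the subtype. -/
noncomputable def ext0 (Ω : Finset X) (v : Ω → ℝ) : X → ℝ :=
  fun x => if h : x ∈ Ω then v ⟨x, h⟩ else 0

theorem vec_ext0 (Ω : Finset X) (v : Ω → ℝ) : vec Ω (ext0 Ω v) = v := by
  funext x
  simp [vec, ext0]

theorem vec_dot (Ω : Finset X) (f g : X → ℝ) :
    vec Ω f ⬝ᵥ vec Ω g = ∑ x ∈ Ω, f x * g x := by
  unfold dotProduct vec
  exact Finset.sum_coe_sort Ω (fun x => f x * g x)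

theorem PM_mulVec (Ω : Finset X) (lab : X → Λ) (f : X → ℝ) :
    PM Ω lab *ᵥ vec Ω f = vec Ω (cexpL Ω lab f) := by
  funext x
  unfold mulVec dotProduct vec PM
  rw [cexpL_eq]
  have h1 : ∀ y : Ω, (if lab y.1 = lab x.1 then
      ((Ω.filter fun z => lab z = lab x.1).card : ℝ)⁻¹ else 0) * f y.1
      = (fun y : X => if lab y = lab x.1 then
          ((Ω.filter fun z => lab z = lab x.1).card : ℝ)⁻¹ * f y else 0) y.1 := by
    intro y
    by_cases h : lab y.1 = lab x.1 <;> simp [h]
  rw [Finset.sum_congr rfl fun y _ => h1 y,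
    Finset.sum_coe_sort Ω (fun y : X => if lab y = lab x.1 then
          ((Ω.filter fun z => lab z = lab x.1).card : ℝ)⁻¹ * f y else 0),
    ← Finset.sum_filter, ← Finset.mul_sum, div_eq_inv_mul]

theorem PM_transpose (Ω : Finset X) (lab : X → Λ) : (PM Ω lab)ᵀ = PM Ω lab := by
  ext x y
  show PM Ω lab y x = PM Ω lab x y
  unfold PM
  by_cases h : lab x.1 = lab y.1
  · rw [if_pos h, if_pos h.symm, h]
  · rw [if_neg h, if_neg (fun h' => h h'.symm)]

theorem PM_idem (Ω : Finset X) (lab : X → Λ) : PM Ω lab * PM Ω lab = PM Ω lab := by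
  apply Matrix.mulVec_injective
  funext v
  rw [← Matrix.mulVec_mulVec, ← vec_ext0 Ω v, PM_mulVec, PM_mulVec]
  funext x
  exact cexpL_idem Ω lab _ x.2

end

section Two

variable {X Λ Λ' : Type*} [DecidableEq Λ] [DecidableEq Λ']

/-- Matrices of commuting conditional expectations commute. -/
theorem PM_comm (Ω : Finset X) (lab : X → Λ) (lab' : X → Λ')
    (h : ∀ (f : X → ℝ) (x : X), x ∈ Ω →
      cexpL Ω lab (cexpL Ω lab' f) x = cexpL Ω lab' (cexpL Ω lab f) x) :
    PM Ω lab * PM Ω lab' = PM Ω lab' * PM Ω lab := by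
  apply Matrix.mulVec_injective
  funext v
  rw [← Matrix.mulVec_mulVec, ← Matrix.mulVec_mulVec, ← vec_ext0 Ω v, PM_mulVec, PM_mulVec,
    PM_mulVec, PM_mulVec]
  funext x
  exact h _ x.1 x.2

end Two

end KTV
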