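import Vale.Agent.Helper16.KTV.Defs

/-!
Three-row systems as colourings (shared definitions for modules C3, C4, C5).

A column of a three-row binary table with column sum 1 is *positive* (its
colour is the row holding the one); a column with column sum 2 is *negative*
(its colour is the row holding the zero).
-/

namespace KTV

open Finset

variable {ι : Type*} [Fintype ι] [DecidableEq ι]

/-- The colour class `r` of a colouring: the set of columns coloured `r`. -/
def cls (r : Fin 3) (σ : ι → Fin 3) : Finset ι := univ.filter fun j => σ j = r

/-- Pure-product system: colourings with a prescribed number of columns of each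
(type, colour). -/
def OmegaPP {τ : Type*} [Fintype τ] [DecidableEq τ] (t : ι → τ) (n : τ → Fin 3 → ℕ) :
    Finset (ι → Fin 3) :=
  univ.filter fun σ => ∀ a r, (univ.filter fun j => t j = a ∧ σ j = r).card = n a r

/-- Three-row system as colourings: positive columns (`t j = true`) and negative
columns (`t j = false`); in colour class `r` the number of positive columns minus
the number of negative columns equals `δ r`. -/
def OmegaCol (t : ι → Bool) (δ : Fin 3 → ℤ) : Finset (ι → Fin 3) :=
  univ.filter fun σ => ∀ r, ((univ.filter fun j => t j = true ∧ σ j = r).card : ℤ)
      - ((univ.filter fun j => t j = false ∧ σ j = r).card : ℤ) = δ r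

end KTV
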