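import Vale.Agent.Helper16.KTV.Bridge

/-!
Glue, part 1: table conditional expectations as label conditional expectations,
the triple inequality in function form, and the counting of row pairs of a switch.
-/

set_option linter.unusedSectionVars false

namespace KTV

open Finset Matrix

section Tri

variable {X Λ1 Λ2 Λ3 ΛT : Type*} [DecidableEq Λ1] [DecidableEq Λ2] [DecidableEq Λ3]
  [DecidableEq ΛT]

theorem sum_cexpL_mul_cexpL {X Λ ΛT : Type*} [DecidableEq Λ] [DecidableEq ΛT]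
    (Ω : Finset X) (l : X → Λ) (lT : X → ΛT)
    (h : ∀ x ∈ Ω, ∀ y ∈ Ω, l x = l y → lT x = lT y) (f : X → ℝ) :
    ∑ x ∈ Ω, cexpL Ω lT f x * cexpL Ω l f x = ∑ x ∈ Ω, cexpL Ω lT f x ^ 2 := by
  rw [cexpL_symm Ω l f (cexpL Ω lT f)]
  have : ∀ x ∈ Ω, cexpL Ω l (cexpL Ω lT f) x * f x = f x * cexpL Ω lT f x := by
    intro x hx
    rw [cexpL_tower' Ω l lT h f hx, mul_comm]
  rw [Finset.sum_congr rfl this, sum_mul_cexpL]

/-- The triple inequality: if `E1 + E2 + E3 ≤ 2 + ET` then `A = 3 - E1 - E2 - E3`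
satisfies `<f, A f> ≤ |A f|^2`. -/
theorem tri_abstract (Ω : Finset X) (l1 : X → Λ1) (l2 : X → Λ2) (l3 : X → Λ3) (lT : X → ΛT)
    (h1 : ∀ x ∈ Ω, ∀ y ∈ Ω, l1 x = l1 y → lT x = lT y)
    (h2 : ∀ x ∈ Ω, ∀ y ∈ Ω, l2 x = l2 y → lT x = lT y)
    (h3 : ∀ x ∈ Ω, ∀ y ∈ Ω, l3 x = l3 y → lT x = lT y)
    (hrow : ∀ f : X → ℝ, ∑ x ∈ Ω, ((cexpL Ω l1 f x) ^ 2 + (cexpL Ω l2 f x) ^ 2
        + (cexpL Ω l3 f x) ^ 2) ≤ 2 * ∑ x ∈ Ω, (f x) ^ 2 + ∑ x ∈ Ω, (cexpL Ω lT f x) ^ 2)
    (f : X → ℝ) :
    ∑ x ∈ Ω, f x * (3 * f x - cexpL Ω l1 f x - cexpL Ω l2 f x - cexpL Ω l3 f x)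
      ≤ ∑ x ∈ Ω, (3 * f x - cexpL Ω l1 f x - cexpL Ω l2 f x - cexpL Ω l3 f x) ^ 2 := by
  set Af : X → ℝ := fun x => 3 * f x - cexpL Ω l1 f x - cexpL Ω l2 f x - cexpL Ω l3 f x
    with hAf
  set n1 := ∑ x ∈ Ω, cexpL Ω l1 f x ^ 2 with hn1
  set n2 := ∑ x ∈ Ω, cexpL Ω l2 f x ^ 2 with hn2
  set n3 := ∑ x ∈ Ω, cexpL Ω l3 f x ^ 2 with hn3
  set nT := ∑ x ∈ Ω, cexpL Ω lT f x ^ 2 with hnT
  set nf := ∑ x ∈ Ω, f x ^ 2 with hnf
  have hrow' : n1 + n2 + n3 ≤ 2 * nf + nT := by
    have := hrow f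
    rw [Finset.sum_add_distrib, Finset.sum_add_distrib] at this
    exact this
  -- a = <f, A f>
  have ha : ∑ x ∈ Ω, f x * Af x = 3 * nf - n1 - n2 - n3 := by
    have : ∀ x ∈ Ω, f x * Af x = 3 * f x ^ 2 - f x * cexpL Ω l1 f x - f x * cexpL Ω l2 f x
        - f x * cexpL Ω l3 f x := fun x _ => by rw [hAf]; ring
    rw [Finset.sum_congr rfl this, Finset.sum_sub_distrib, Finset.sum_sub_distrib,
      Finset.sum_sub_distrib, ← Finset.mul_sum, sum_mul_cexpL, sum_mul_cexpL, sum_mul_cexpL]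
  -- <ET f, A f> = 0
  have hT0 : ∑ x ∈ Ω, cexpL Ω lT f x * Af x = 0 := by
    have : ∀ x ∈ Ω, cexpL Ω lT f x * Af x = 3 * (f x * cexpL Ω lT f x)
        - cexpL Ω lT f x * cexpL Ω l1 f x - cexpL Ω lT f x * cexpL Ω l2 f x
        - cexpL Ω lT f x * cexpL Ω l3 f x := fun x _ => by rw [hAf]; ring
    rw [Finset.sum_congr rfl this, Finset.sum_sub_distrib, Finset.sum_sub_distrib,
      Finset.sum_sub_distrib, ← Finset.mul_sum, sum_mul_cexpL,
      sum_cexpL_mul_cexpL Ω l1 lT h1, sum_cexpL_mul_cexpL Ω l2 lT h2,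
      sum_cexpL_mul_cexpL Ω l3 lT h3]
    ring
  -- U = |f - ET f|^2
  have hU : ∑ x ∈ Ω, (f x - cexpL Ω lT f x) ^ 2 = nf - nT := sum_sub_cexpL_sq Ω lT f
  have ha' : ∑ x ∈ Ω, (f x - cexpL Ω lT f x) * Af x = 3 * nf - n1 - n2 - n3 := by
    have : ∀ x ∈ Ω, (f x - cexpL Ω lT f x) * Af x = f x * Af x - cexpL Ω lT f x * Af x :=
      fun x _ => by ring
    rw [Finset.sum_congr rfl this, Finset.sum_sub_distrib, ha, hT0, sub_zero]
  have hCS := Finset.sum_mul_sq_le_sq_mul_sq Ω (fun x => f x - cexpL Ω lT f x) Af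
  rw [ha', hU] at hCS
  rw [ha]
  set a := 3 * nf - n1 - n2 - n3 with hadef
  set N := ∑ x ∈ Ω, Af x ^ 2 with hN
  have hN0 : 0 ≤ N := Finset.sum_nonneg fun _ _ => sq_nonneg _
  have hUa : nf - nT ≤ a := by rw [hadef]; linarith
  by_contra hcon
  push Not at hcon
  have hapos : 0 < a := lt_of_le_of_lt hN0 hcon
  have : a ^ 2 ≤ a * N := hCS.trans (mul_le_mul_of_nonneg_right hUa hN0)
  nlinarith

end Tri

section Tables

variable {α β : Type*} [Fintype α] [DecidableEq α] [Fintype β] [DecidableEq β]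

/-- The label of a table given by its rows outside `S`. -/
def labOff (S : Finset α) (x : Tab α β) : {a // a ∉ S} → β → Bool := fun a => x a.1

theorem agreeOff_iff (S : Finset α) (x y : Tab α β) :
    AgreeOff S x y ↔ labOff S y = labOff S x := by
  unfold AgreeOff labOff
  constructor
  · intro h; funext a; exact (h a.1 a.2).symm
  · intro h a ha; exact (congrFun h ⟨a, ha⟩).symm

theorem cexp_eq (Ω : Finset (Tab α β)) (S : Finset α) (f : Tab α β → ℝ) (x : Tab α β) :
    cexp Ω S f x = cexpL Ω (labOff S) f x := by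
  rw [cexpL_eq]
  unfold cexp fibre
  have : Ω.filter (AgreeOff S x) = Ω.filter (fun y => labOff S y = labOff S x) := by
    ext y; simp [agreeOff_iff]
  rw [this]

theorem labOff_mono {S T : Finset α} (h : S ⊆ T) (x y : Tab α β)
    (hxy : labOff S x = labOff S y) : labOff T x = labOff T y := by
  funext a
  exact congrFun hxy ⟨a.1, fun ha => a.2 (h ha)⟩

/-- A switch in rows `a, b` changes exactly the rows `a` and `b`. -/
theorem SwitchAt.rows {a b : α} {j k : β} {x y : Tab α β} (h : SwitchAt a b j k x y) :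
    x a ≠ y a ∧ x b ≠ y b ∧ ∀ r, r ≠ a → r ≠ b → x r = y r := by
  obtain ⟨_, _, h1, h2, _, _, h5, h6, _, _, hrest⟩ := h
  refine ⟨fun he => ?_, fun he => ?_, fun r hra hrb => ?_⟩
  · have := congrFun he j; rw [h1, h5] at this; exact absurd this (by simp)
  · have := congrFun he k; rw [h2, h6] at this; exact absurd this (by simp)
  · funext s
    exact (hrest r s (fun hh => by rcases hh.1 with h' | h' <;> simp_all)).symm

theorem SwitchAt.labOff {a b : α} {j k : β} {x y : Tab α β} (h : SwitchAt a b j k x y) :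
    labOff {a, b} x = labOff {a, b} y := by
  funext r
  have hr := r.2
  simp only [Finset.mem_insert, Finset.mem_singleton, not_or] at hr
  exact h.rows.2.2 r.1 hr.1 hr.2

open Classical in
/-- The ordered row pairs supporting a given switch: at most two. -/
theorem switchRows_count (x y : Tab α β) :
    (∑ i : α, ∑ j ∈ univ.erase i, (if SwitchRows i j x y then (1 : ℝ) else 0))
      ≤ if IsSwitch x y then 2 else 0 := by
  by_cases hs : IsSwitch x y
  · rw [if_pos hs]
    obtain ⟨a, b, j0, k0, hsw⟩ := hs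
    have hab : a ≠ b := hsw.1
    have hkey : ∀ i j, SwitchRows i j x y → (i = a ∧ j = b) ∨ (i = b ∧ j = a) := by
      intro i j ⟨j1, k1, h1⟩
      have hij : i ≠ j := h1.1
      obtain ⟨hxi, hxj, _⟩ := h1.rows
      obtain ⟨_, _, hrest⟩ := hsw.rows
      have hi : i = a ∨ i = b := by
        by_contra hcon; push Not at hcon
        exact hxi (hrest i hcon.1 hcon.2)
      have hj : j = a ∨ j = b := by
        by_contra hcon; push Not at hcon
        exact hxj (hrest j hcon.1 hcon.2)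
      rcases hi with rfl | rfl <;> rcases hj with rfl | rfl
      · exact absurd rfl hij
      · exact Or.inl ⟨rfl, rfl⟩
      · exact Or.inr ⟨rfl, rfl⟩
      · exact absurd rfl hij
    have hle : ∀ i : α, ∀ j ∈ univ.erase i, (if SwitchRows i j x y then (1 : ℝ) else 0)
        ≤ (if i = a ∧ j = b then 1 else 0) + (if i = b ∧ j = a then 1 else 0) := by
      intro i j _
      by_cases h : SwitchRows i j x y
      · rw [if_pos h]
        rcases hkey i j h with h' | h'
        · rw [if_pos h']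
          have : (0 : ℝ) ≤ if i = b ∧ j = a then 1 else 0 := by split_ifs <;> norm_num
          linarith
        · rw [if_pos h']
          have : (0 : ℝ) ≤ if i = a ∧ j = b then 1 else 0 := by split_ifs <;> norm_num
          linarith
      · rw [if_neg h]
        have h1 : (0 : ℝ) ≤ if i = a ∧ j = b then 1 else 0 := by split_ifs <;> norm_num
        have h2 : (0 : ℝ) ≤ if i = b ∧ j = a then 1 else 0 := by split_ifs <;> norm_num
        linarith
    have hbound : ∀ p q : α, (∑ i : α, ∑ j ∈ univ.erase i,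
        (if i = p ∧ j = q then (1 : ℝ) else 0)) ≤ 1 := by
      intro p q
      have h1 : ∀ i : α, (∑ j ∈ univ.erase i, (if i = p ∧ j = q then (1 : ℝ) else 0))
          ≤ ∑ j : α, (if i = p ∧ j = q then (1 : ℝ) else 0) := by
        intro i
        apply Finset.sum_le_sum_of_subset_of_nonneg (Finset.erase_subset _ _)
        intro j _ _
        split_ifs <;> norm_num
      refine (Finset.sum_le_sum fun i _ => h1 i).trans ?_
      have h2 : ∀ i : α, (∑ j : α, (if i = p ∧ j = q then (1 : ℝ) else 0))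
          = if i = p then 1 else 0 := by
        intro i
        by_cases hi : i = p
        · simp [hi]
        · simp [hi]
      rw [Finset.sum_congr rfl fun i _ => h2 i]
      simp
    calc (∑ i : α, ∑ j ∈ univ.erase i, (if SwitchRows i j x y then (1 : ℝ) else 0))
        ≤ ∑ i : α, ∑ j ∈ univ.erase i, ((if i = a ∧ j = b then (1 : ℝ) else 0)
            + (if i = b ∧ j = a then 1 else 0)) :=
          Finset.sum_le_sum fun i _ => Finset.sum_le_sum fun j hj => hle i j hj
      _ = (∑ i : α, ∑ j ∈ univ.erase i, (if i = a ∧ j = b then (1 : ℝ) else 0))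
            + ∑ i : α, ∑ j ∈ univ.erase i, (if i = b ∧ j = a then (1 : ℝ) else 0) := by
          simp only [Finset.sum_add_distrib]
      _ ≤ 1 + 1 := add_le_add (hbound a b) (hbound b a)
      _ = 2 := by norm_num
  · rw [if_neg hs]
    apply le_of_eq
    apply Finset.sum_eq_zero
    intro i _
    apply Finset.sum_eq_zero
    intro j _
    rw [if_neg]
    rintro ⟨j1, k1, h1⟩
    exact hs ⟨i, j, j1, k1, h1⟩

end Tables

end KTV
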